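import Vale.Agent.Lib.P331.Ds.Sum2

/-! # P331: direct sums of finitely many blocks -/

namespace Vale.Agent.Lib.P331

open MeasureTheory
open scoped NNReal ENNReal

variable {E : Type} [Fintype E] [DecidableEq E]

private theorem opt_zero_of_no_singleton (M : Matroid E) (hZ : ∀ e, ¬ M.Indep {e})
    (v : E → ℝ≥0) : opt M v = 0 := by
  classical
  unfold opt
  refine le_antisymm (Finset.sup_le fun I hI => ?_) zero_le
  have hInd : M.Indep (I : Set E) := (Finset.mem_filter.1 hI).2
  have hI0 : I = ∅ := by
    apply Finset.eq_empty_of_forall_notMem
    intro e he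
    exact hZ e (hInd.subset (by simpa using he))
  rw [hI0]
  simp

private theorem competitive_of_no_singleton (M : Matroid E) (R : Rule E) (c : ℝ≥0∞)
    (hZ : ∀ e, ¬ M.Indep {e}) : Competitive M R c := by
  intro D _ _ adv
  simp only [opt_zero_of_no_singleton M hZ, ENNReal.coe_zero, lintegral_zero, mul_zero]
  exact zero_le

theorem competitive_blocks (M : Matroid E) (blk : E → ℕ)
    (hsum : ∀ I : Set E, (∀ j, M.Indep (I ∩ {e | blk e = j})) → M.Indep I) (c : ℝ≥0∞)
    (h : ∀ j, ∃ R : Rule E, Competitive (M.restrict {e | blk e = j}) R c) :
    ∃ R : Rule E, Competitive M R c := by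
  have main : ∀ T : Finset ℕ, ∀ M : Matroid E,
      (∀ I : Set E, (∀ j, M.Indep (I ∩ {e | blk e = j})) → M.Indep I) →
      (∀ e, M.Indep {e} → blk e ∈ T) →
      (∀ j, ∃ R : Rule E, Competitive (M.restrict {e | blk e = j}) R c) →
      ∃ R : Rule E, Competitive M R c := by
    intro T
    induction T using Finset.induction_on with
    | empty =>
      intro M _ hT h
      obtain ⟨R, _⟩ := h 0
      exact ⟨R, competitive_of_no_singleton M R c (fun e he => by simpa using hT e he)⟩
    | insert j T' hj ih =>
      intro M hsum hT h
      have hsum2 : ∀ I : Set E, M.Indep (I ∩ {e | blk e = j}) → M.Indep (I \ {e | blk e = j}) →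
          M.Indep I := by
        intro I h1 h2
        apply hsum
        intro i
        by_cases hij : i = j
        · rw [hij]
          exact h1
        · apply h2.subset
          rintro e ⟨heI, hei⟩
          exact ⟨heI, fun heX => hij ((show blk e = i from hei).symm.trans heX)⟩
      obtain ⟨R₁, hR₁⟩ := h j
      have hM' : ∃ R₂ : Rule E, Competitive (M.restrict {e | blk e = j}ᶜ) R₂ c := by
        apply ih (M.restrict {e | blk e = j}ᶜ)
        · intro I hI
          rw [Matroid.restrict_indep_iff]
          constructor
          · apply hsum
            intro i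
            exact ((Matroid.restrict_indep_iff).1 (hI i)).1
          · intro e he
            exact ((Matroid.restrict_indep_iff).1 (hI (blk e))).2 ⟨he, rfl⟩
        · intro e he
          rw [Matroid.restrict_indep_iff] at he
          have h1 := hT e he.1
          have h2 : e ∈ {e | blk e = j}ᶜ := he.2 (Set.mem_singleton e)
          rcases Finset.mem_insert.1 h1 with h3 | h3
          · exact absurd h3 h2
          · exact h3
        · intro i
          by_cases hij : i = j
          · obtain ⟨R, _⟩ := h i
            refine ⟨R, competitive_of_no_singleton _ R c (fun e he => ?_)⟩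
            rw [Matroid.restrict_indep_iff, Matroid.restrict_indep_iff] at he
            have h4 : blk e = i := he.2 (Set.mem_singleton e)
            exact (he.1.2 (Set.mem_singleton e)) (h4.trans hij)
          · have hsub : {e | blk e = i} ⊆ {e | blk e = j}ᶜ :=
              fun e he heX => hij ((show blk e = i from he).symm.trans heX)
            rw [Matroid.restrict_restrict_eq _ hsub]
            exact h i
      obtain ⟨R₂, hR₂⟩ := hM'
      exact ⟨_, competitive_sum2 M {e | blk e = j} hsum2 R₁ R₂ c hR₁ hR₂⟩
  exact main (Finset.univ.image blk) M hsum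
    (fun e _ => Finset.mem_image_of_mem _ (Finset.mem_univ e)) h

end Vale.Agent.Lib.P331
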