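import Mathlib

/-! # P331: integrating out one of two independent seeds -/

namespace Vale.Agent.Lib.P331

open MeasureTheory
open scoped ENNReal

theorem lintegral_ge_left {α₁ α₂ β : Type} [MeasurableSpace α₁] [MeasurableSpace α₂]
    [MeasurableSpace β] (μ₁ : Measure α₁) (μ₂ : Measure α₂) (Q : Measure β)
    [IsProbabilityMeasure μ₁] [IsProbabilityMeasure μ₂] [SFinite Q]
    (F : (α₁ × α₂) × β → ℝ≥0∞) (hF : Measurable F) (B : ℝ≥0∞)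
    (h : ∀ r₂, B ≤ ∫⁻ p : α₁ × β, F ((p.1, r₂), p.2) ∂(μ₁.prod Q)) :
    B ≤ ∫⁻ p, F p ∂((μ₁.prod μ₂).prod Q) := by
  have hG : Measurable (fun x : α₁ × α₂ => ∫⁻ q, F (x, q) ∂Q) := hF.lintegral_prod_right'
  rw [lintegral_prod _ hF.aemeasurable, lintegral_prod _ hG.aemeasurable]
  have hsw : ∫⁻ r₁, ∫⁻ r₂, ∫⁻ q, F ((r₁, r₂), q) ∂Q ∂μ₂ ∂μ₁
      = ∫⁻ r₂, ∫⁻ r₁, ∫⁻ q, F ((r₁, r₂), q) ∂Q ∂μ₁ ∂μ₂ :=
    lintegral_lintegral_swap (f := fun r₁ r₂ => ∫⁻ q, F ((r₁, r₂), q) ∂Q) hG.aemeasurable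
  rw [hsw]
  have h2 : ∀ r₂, B ≤ ∫⁻ r₁, ∫⁻ q, F ((r₁, r₂), q) ∂Q ∂μ₁ := by
    intro r₂
    have hm : Measurable (fun p : α₁ × β => F ((p.1, r₂), p.2)) := hF.comp (by fun_prop)
    have h3 := h r₂
    rwa [lintegral_prod _ hm.aemeasurable] at h3
  calc B = ∫⁻ _ : α₂, B ∂μ₂ := by simp
    _ ≤ _ := lintegral_mono h2

theorem lintegral_ge_right {α₁ α₂ β : Type} [MeasurableSpace α₁] [MeasurableSpace α₂]
    [MeasurableSpace β] (μ₁ : Measure α₁) (μ₂ : Measure α₂) (Q : Measure β)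
    [IsProbabilityMeasure μ₁] [IsProbabilityMeasure μ₂] [SFinite Q]
    (F : (α₁ × α₂) × β → ℝ≥0∞) (hF : Measurable F) (B : ℝ≥0∞)
    (h : ∀ r₁, B ≤ ∫⁻ p : α₂ × β, F ((r₁, p.1), p.2) ∂(μ₂.prod Q)) :
    B ≤ ∫⁻ p, F p ∂((μ₁.prod μ₂).prod Q) := by
  have hG : Measurable (fun x : α₁ × α₂ => ∫⁻ q, F (x, q) ∂Q) := hF.lintegral_prod_right'
  rw [lintegral_prod _ hF.aemeasurable, lintegral_prod _ hG.aemeasurable]
  have h2 : ∀ r₁, B ≤ ∫⁻ r₂, ∫⁻ q, F ((r₁, r₂), q) ∂Q ∂μ₂ := by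
    intro r₁
    have hm : Measurable (fun p : α₂ × β => F ((r₁, p.1), p.2)) := hF.comp (by fun_prop)
    have h3 := h r₁
    rwa [lintegral_prod _ hm.aemeasurable] at h3
  calc B = ∫⁻ _ : α₁, B ∂μ₁ := by simp
    _ ≤ _ := lintegral_mono h2

end Vale.Agent.Lib.P331
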