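import Vale.Agent.Lib.P331.Opt

/-! # P331: the optimum and restrictions -/

namespace Vale.Agent.Lib.P331

open scoped NNReal ENNReal

variable {E : Type} [Fintype E] [DecidableEq E]

theorem opt_restrict_le (M : Matroid E) (X : Set E) (v : E → ℝ≥0) :
    opt (M.restrict X) v ≤ opt M v := by
  refine opt_le _ v _ (fun I hI => ?_)
  exact sum_le_opt M v (Matroid.restrict_indep_iff.1 hI).1

theorem opt_le_restrict2 (M : Matroid E) (X : Set E) (v : E → ℝ≥0) :
    opt M v ≤ opt (M.restrict X) v + opt (M.restrict Xᶜ) v := by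
  classical
  refine opt_le _ v _ (fun I hI => ?_)
  rw [← Finset.sum_filter_add_sum_filter_not I (fun e => e ∈ X)]
  apply add_le_add
  · apply sum_le_opt
    rw [Matroid.restrict_indep_iff]
    refine ⟨hI.subset ?_, ?_⟩
    · intro e he
      exact (Finset.mem_filter.1 (Finset.mem_coe.1 he)).1
    · intro e he
      exact (Finset.mem_filter.1 (Finset.mem_coe.1 he)).2
  · apply sum_le_opt
    rw [Matroid.restrict_indep_iff]
    refine ⟨hI.subset ?_, ?_⟩
    · intro e he
      exact (Finset.mem_filter.1 (Finset.mem_coe.1 he)).1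
    · intro e he
      exact (Finset.mem_filter.1 (Finset.mem_coe.1 he)).2

end Vale.Agent.Lib.P331
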