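import Vale.Agent.Lib.P331.Ds.ProdMeas

/-! # P331: the product of two rules: `R₁` decides on `X`, `R₂` outside, independent seeds -/

namespace Vale.Agent.Lib.P331

open MeasureTheory
open scoped NNReal ENNReal

variable {E : Type} [Fintype E] [DecidableEq E]

open scoped Classical in
/-- independent seeds; `R₁` decides on the elements of `X`, `R₂` on the others -/
noncomputable def prodRule (X : Set E) (R₁ R₂ : Rule E) : Rule E where
  Seed := R₁.Seed × R₂.Seed
  mSeed := inferInstance
  law := R₁.law.prod R₂.law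
  prob := inferInstance
  dec := fun r s past e x => if e ∈ X then R₁.dec r.1 s past e x else R₂.dec r.2 s past e x
  meas := fun past e => prod_meas X R₁ R₂ past e

theorem step_prod_inv (M : Matroid E) (X : Set E)
    (hsum : ∀ I : Set E, M.Indep (I ∩ X) → M.Indep (I \ X) → M.Indep I) (R₁ R₂ : Rule E)
    (r : R₁.Seed × R₂.Seed) (s v : E → ℝ≥0) (P : List E) (A1 A2 : Finset E)
    (h1 : (↑A1 : Set E) ⊆ X) (h2 : (↑A2 : Set E) ⊆ Xᶜ) (i1 : M.Indep ↑A1) (i2 : M.Indep ↑A2)
    (e : E) :
    ∃ B1 B2 : Finset E, step M (prodRule X R₁ R₂) r s v (P, A1 ∪ A2) e = (e :: P, B1 ∪ B2) ∧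
      step (M.restrict X) R₁ r.1 s v (P, A1) e = (e :: P, B1) ∧
      step (M.restrict Xᶜ) R₂ r.2 s v (P, A2) e = (e :: P, B2) ∧
      (↑B1 : Set E) ⊆ X ∧ (↑B2 : Set E) ⊆ Xᶜ ∧ M.Indep ↑B1 ∧ M.Indep ↑B2 := by
  by_cases he : e ∈ X
  · have hdec : (prodRule X R₁ R₂).dec r s P e (mask (e :: P) v)
        = R₁.dec r.1 s P e (mask (e :: P) v) := if_pos he
    have n2 : ¬ (M.restrict Xᶜ).Indep ↑(insert e A2) := by
      rw [Matroid.restrict_indep_iff]
      rintro ⟨-, hs⟩
      exact hs (by simp) he
    have key : (M.restrict X).Indep ↑(insert e A1) → M.Indep ↑(insert e (A1 ∪ A2)) := by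
      rw [Matroid.restrict_indep_iff]
      rintro ⟨hi, -⟩
      apply hsum
      · apply hi.subset
        rintro x ⟨hx, hxX⟩
        simp only [Finset.coe_insert, Finset.coe_union, Set.mem_insert_iff, Set.mem_union,
          Finset.mem_coe] at hx ⊢
        rcases hx with hx | hx | hx
        · exact Or.inl hx
        · exact Or.inr hx
        · exact absurd hxX (h2 hx)
      · apply i2.subset
        rintro x ⟨hx, hxX⟩
        simp only [Finset.coe_insert, Finset.coe_union, Set.mem_insert_iff, Set.mem_union,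
          Finset.mem_coe] at hx ⊢
        rcases hx with hx | hx | hx
        · exact absurd (hx ▸ he) hxX
        · exact absurd (h1 hx) hxX
        · exact hx
    have key2 : M.Indep ↑(insert e (A1 ∪ A2)) → (M.restrict X).Indep ↑(insert e A1) := by
      intro hi
      rw [Matroid.restrict_indep_iff]
      constructor
      · apply hi.subset
        intro x hx
        simp only [Finset.coe_insert, Finset.coe_union, Set.mem_insert_iff, Set.mem_union,
          Finset.mem_coe] at hx ⊢
        tauto
      · intro x hx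
        simp only [Finset.coe_insert, Set.mem_insert_iff, Finset.mem_coe] at hx
        rcases hx with hx | hx
        · exact hx ▸ he
        · exact h1 hx
    by_cases hc : R₁.dec r.1 s P e (mask (e :: P) v) = true ∧
        (M.restrict X).Indep ↑(insert e A1)
    · refine ⟨insert e A1, A2, ?_, ?_, ?_, ?_, h2, ?_, i2⟩
      · unfold step
        simp only
        rw [hdec, if_pos ⟨hc.1, key hc.2⟩, Finset.insert_union]
      · unfold step
        simp only
        rw [if_pos hc]
      · unfold step
        simp only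
        rw [if_neg (fun h => n2 h.2)]
      · exact ((Matroid.restrict_indep_iff).1 hc.2).2
      · exact ((Matroid.restrict_indep_iff).1 hc.2).1
    · refine ⟨A1, A2, ?_, ?_, ?_, h1, h2, i1, i2⟩
      · unfold step
        simp only
        rw [hdec, if_neg (fun h => hc ⟨h.1, key2 h.2⟩)]
      · unfold step
        simp only
        rw [if_neg hc]
      · unfold step
        simp only
        rw [if_neg (fun h => n2 h.2)]
  · have hdec : (prodRule X R₁ R₂).dec r s P e (mask (e :: P) v)
        = R₂.dec r.2 s P e (mask (e :: P) v) := if_neg he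
    have n1 : ¬ (M.restrict X).Indep ↑(insert e A1) := by
      rw [Matroid.restrict_indep_iff]
      rintro ⟨-, hs⟩
      exact he (hs (by simp))
    have key : (M.restrict Xᶜ).Indep ↑(insert e A2) → M.Indep ↑(insert e (A1 ∪ A2)) := by
      rw [Matroid.restrict_indep_iff]
      rintro ⟨hi, -⟩
      apply hsum
      · apply i1.subset
        rintro x ⟨hx, hxX⟩
        simp only [Finset.coe_insert, Finset.coe_union, Set.mem_insert_iff, Set.mem_union,
          Finset.mem_coe] at hx ⊢
        rcases hx with hx | hx | hx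
        · exact absurd (hx ▸ hxX) he
        · exact hx
        · exact absurd hxX (h2 hx)
      · apply hi.subset
        rintro x ⟨hx, hxX⟩
        simp only [Finset.coe_insert, Finset.coe_union, Set.mem_insert_iff, Set.mem_union,
          Finset.mem_coe] at hx ⊢
        rcases hx with hx | hx | hx
        · exact Or.inl hx
        · exact absurd (h1 hx) hxX
        · exact Or.inr hx
    have key2 : M.Indep ↑(insert e (A1 ∪ A2)) → (M.restrict Xᶜ).Indep ↑(insert e A2) := by
      intro hi
      rw [Matroid.restrict_indep_iff]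
      constructor
      · apply hi.subset
        intro x hx
        simp only [Finset.coe_insert, Finset.coe_union, Set.mem_insert_iff, Set.mem_union,
          Finset.mem_coe] at hx ⊢
        tauto
      · intro x hx
        simp only [Finset.coe_insert, Set.mem_insert_iff, Finset.mem_coe] at hx
        rcases hx with hx | hx
        · exact hx ▸ he
        · exact h2 hx
    by_cases hc : R₂.dec r.2 s P e (mask (e :: P) v) = true ∧
        (M.restrict Xᶜ).Indep ↑(insert e A2)
    · refine ⟨A1, insert e A2, ?_, ?_, ?_, h1, ?_, i1, ?_⟩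
      · unfold step
        simp only
        rw [hdec, if_pos ⟨hc.1, key hc.2⟩, Finset.union_insert]
      · unfold step
        simp only
        rw [if_neg (fun h => n1 h.2)]
      · unfold step
        simp only
        rw [if_pos hc]
      · exact ((Matroid.restrict_indep_iff).1 hc.2).2
      · exact ((Matroid.restrict_indep_iff).1 hc.2).1
    · refine ⟨A1, A2, ?_, ?_, ?_, h1, h2, i1, i2⟩
      · unfold step
        simp only
        rw [hdec, if_neg (fun h => hc ⟨h.1, key2 h.2⟩)]
      · unfold step
        simp only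
        rw [if_neg (fun h => n1 h.2)]
      · unfold step
        simp only
        rw [if_neg hc]

theorem foldl_prod_inv (M : Matroid E) (X : Set E)
    (hsum : ∀ I : Set E, M.Indep (I ∩ X) → M.Indep (I \ X) → M.Indep I) (R₁ R₂ : Rule E)
    (r : R₁.Seed × R₂.Seed) (s v : E → ℝ≥0) (l : List E) :
    ∃ (P : List E) (B1 B2 : Finset E),
      l.foldl (step M (prodRule X R₁ R₂) r s v) ([], ∅) = (P, B1 ∪ B2) ∧
      l.foldl (step (M.restrict X) R₁ r.1 s v) ([], ∅) = (P, B1) ∧
      l.foldl (step (M.restrict Xᶜ) R₂ r.2 s v) ([], ∅) = (P, B2) ∧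
      (↑B1 : Set E) ⊆ X ∧ (↑B2 : Set E) ⊆ Xᶜ ∧ M.Indep ↑B1 ∧ M.Indep ↑B2 := by
  induction l using List.reverseRecOn with
  | nil => exact ⟨[], ∅, ∅, by simp, by simp, by simp, by simp, by simp, by simp, by simp⟩
  | append_singleton l e ih =>
    obtain ⟨P, A1, A2, e0, e1, e2, h1, h2, i1, i2⟩ := ih
    obtain ⟨B1, B2, f0, f1, f2, g1, g2, j1, j2⟩ :=
      step_prod_inv M X hsum R₁ R₂ r s v P A1 A2 h1 h2 i1 i2 e
    refine ⟨e :: P, B1, B2, ?_, ?_, ?_, g1, g2, j1, j2⟩
    · rw [List.foldl_append, e0]; exact f0
    · rw [List.foldl_append, e1]; exact f1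
    · rw [List.foldl_append, e2]; exact f2

theorem run_prodRule (M : Matroid E) (X : Set E)
    (hsum : ∀ I : Set E, M.Indep (I ∩ X) → M.Indep (I \ X) → M.Indep I) (R₁ R₂ : Rule E)
    (r : R₁.Seed × R₂.Seed) (s v : E → ℝ≥0) (l : List E) :
    run M (prodRule X R₁ R₂) r s v l
        = run (M.restrict X) R₁ r.1 s v l ∪ run (M.restrict Xᶜ) R₂ r.2 s v l ∧
      Disjoint (run (M.restrict X) R₁ r.1 s v l) (run (M.restrict Xᶜ) R₂ r.2 s v l) := by
  obtain ⟨P, B1, B2, e0, e1, e2, h1, h2, -, -⟩ := foldl_prod_inv M X hsum R₁ R₂ r s v l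
  unfold run
  rw [e0, e1, e2]
  refine ⟨rfl, ?_⟩
  rw [Finset.disjoint_left]
  intro x hx1 hx2
  exact h2 (Finset.mem_coe.2 hx2) (h1 (Finset.mem_coe.2 hx1))

end Vale.Agent.Lib.P331
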