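import Vale.Agent.Lib.P331.Gr.Mix

/-! # P331: the product of two rules: measurability of the wish -/

namespace Vale.Agent.Lib.P331

open MeasureTheory
open scoped NNReal ENNReal

variable {E : Type} [Fintype E] [DecidableEq E]

open scoped Classical in
theorem prod_meas (X : Set E) (R₁ R₂ : Rule E) (past : List E) (e : E) :
    Measurable (fun p : (R₁.Seed × R₂.Seed) × (E → ℝ≥0) × (E → ℝ≥0) =>
      if e ∈ X then R₁.dec p.1.1 p.2.1 past e p.2.2 else R₂.dec p.1.2 p.2.1 past e p.2.2) := by
  by_cases he : e ∈ X
  · simp only [if_pos he]
    exact (R₁.meas past e).comp ((measurable_fst.comp measurable_fst).prodMk measurable_snd)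
  · simp only [if_neg he]
    exact (R₂.meas past e).comp ((measurable_snd.comp measurable_fst).prodMk measurable_snd)

end Vale.Agent.Lib.P331
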