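import Vale.Agent.Lib.P331.Gr.RunMeas

/-! # P331: the collected value is measurable -/

namespace Vale.Agent.Lib.P331

open MeasureTheory
open scoped NNReal ENNReal

variable {E : Type} [Fintype E] [DecidableEq E]

theorem measurable_val (N : Matroid E) (R : Rule E) {Ω : Type} [MeasurableSpace Ω]
    (a : Ω → R.Seed × (E → ℝ≥0) × (E → ℝ≥0)) (ha : Measurable a) (ord : Ω → List E)
    (hord : ∀ l, MeasurableSet {ω | ord ω = l}) :
    Measurable (fun ω =>
      ((∑ e ∈ run N R (a ω).1 (a ω).2.1 (a ω).2.2 (ord ω), (a ω).2.2 e : ℝ≥0) : ℝ≥0∞)) := by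
  classical
  have hS : ∀ A : Finset E,
      MeasurableSet {ω | run N R (a ω).1 (a ω).2.1 (a ω).2.2 (ord ω) = A} := by
    intro A
    have : {ω | run N R (a ω).1 (a ω).2.1 (a ω).2.2 (ord ω) = A}
        = ⋃ l : List E, ({ω | ord ω = l} ∩ a ⁻¹' {p | run N R p.1 p.2.1 p.2.2 l = A}) := by
      ext ω
      simp only [Set.mem_setOf_eq, Set.mem_iUnion, Set.mem_inter_iff, Set.mem_preimage]
      constructor
      · intro h
        exact ⟨ord ω, rfl, h⟩
      · rintro ⟨l, hl, h⟩
        rw [hl]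
        exact h
    rw [this]
    exact MeasurableSet.iUnion fun l => (hord l).inter (ha (measurableSet_run N R l A))
  have hf : (fun ω =>
      ((∑ e ∈ run N R (a ω).1 (a ω).2.1 (a ω).2.2 (ord ω), (a ω).2.2 e : ℝ≥0) : ℝ≥0∞))
      = fun ω => ∑ A : Finset E, if run N R (a ω).1 (a ω).2.1 (a ω).2.2 (ord ω) = A
          then ((∑ e ∈ A, (a ω).2.2 e : ℝ≥0) : ℝ≥0∞) else 0 := by
    funext ω
    rw [Finset.sum_ite_eq]
    simp
  rw [hf]
  refine Finset.measurable_fun_sum _ fun A _ => ?_
  refine Measurable.ite (hS A) ?_ measurable_const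
  refine Measurable.coe_nnreal_ennreal ?_
  refine Finset.measurable_fun_sum _ fun e _ => ?_
  exact (measurable_pi_apply e).comp (measurable_snd.comp (measurable_snd.comp ha))

end Vale.Agent.Lib.P331
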