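import Vale.Agent.Lib.P331.Ds.Prod
import Vale.Agent.Lib.P331.Ds.ValMeas
import Vale.Agent.Lib.P331.Ds.Fubini
import Vale.Agent.Lib.P331.Ds.OptR

/-! # P331: direct sum of two matroids -/

namespace Vale.Agent.Lib.P331

open MeasureTheory
open scoped NNReal ENNReal

variable {E : Type} [Fintype E] [DecidableEq E]

theorem competitive_sum2 (M : Matroid E) (X : Set E)
    (hsum : ∀ I : Set E, M.Indep (I ∩ X) → M.Indep (I \ X) → M.Indep I) (R₁ R₂ : Rule E)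
    (c : ℝ≥0∞) (h₁ : Competitive (M.restrict X) R₁ c) (h₂ : Competitive (M.restrict Xᶜ) R₂ c) :
    Competitive M (prodRule X R₁ R₂) c := by
  intro D hD hfin adv
  haveI := hD
  have fin1 : (∫⁻ v, (opt (M.restrict X) v : ℝ≥0∞) ∂(Measure.pi D)) ≠ ⊤ :=
    ne_top_of_le_ne_top hfin (lintegral_mono (fun v => ENNReal.coe_le_coe.2 (opt_restrict_le M X v)))
  have fin2 : (∫⁻ v, (opt (M.restrict Xᶜ) v : ℝ≥0∞) ∂(Measure.pi D)) ≠ ⊤ :=
    ne_top_of_le_ne_top hfin (lintegral_mono (fun v => ENNReal.coe_le_coe.2 (opt_restrict_le M Xᶜ v)))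
  let F1 : (R₁.Seed × R₂.Seed) × (E → ℝ≥0) × (E → ℝ≥0) → ℝ≥0∞ := fun p =>
    ((∑ e ∈ run (M.restrict X) R₁ p.1.1 p.2.1 p.2.2 (adv.order p.1 p.2.1 p.2.2), p.2.2 e : ℝ≥0) : ℝ≥0∞)
  let F2 : (R₁.Seed × R₂.Seed) × (E → ℝ≥0) × (E → ℝ≥0) → ℝ≥0∞ := fun p =>
    ((∑ e ∈ run (M.restrict Xᶜ) R₂ p.1.2 p.2.1 p.2.2 (adv.order p.1 p.2.1 p.2.2), p.2.2 e : ℝ≥0) : ℝ≥0∞)
  have mF1 : Measurable F1 :=
    measurable_val (M.restrict X) R₁
      (fun p : (R₁.Seed × R₂.Seed) × (E → ℝ≥0) × (E → ℝ≥0) => (p.1.1, p.2.1, p.2.2))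
      (measurable_fst.fst.prodMk (measurable_snd.fst.prodMk measurable_snd.snd))
      (fun p => adv.order p.1 p.2.1 p.2.2) adv.meas
  have mF2 : Measurable F2 :=
    measurable_val (M.restrict Xᶜ) R₂
      (fun p : (R₁.Seed × R₂.Seed) × (E → ℝ≥0) × (E → ℝ≥0) => (p.1.2, p.2.1, p.2.2))
      (measurable_fst.snd.prodMk (measurable_snd.fst.prodMk measurable_snd.snd))
      (fun p => adv.order p.1 p.2.1 p.2.2) adv.meas
  have hint : ∫⁻ p, ((∑ e ∈ run M (prodRule X R₁ R₂) p.1 p.2.1 p.2.2 (adv.order p.1 p.2.1 p.2.2),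
      p.2.2 e : ℝ≥0) : ℝ≥0∞) ∂((prodRule X R₁ R₂).law.prod ((Measure.pi D).prod (Measure.pi D)))
      = ∫⁻ p, F1 p ∂((R₁.law.prod R₂.law).prod ((Measure.pi D).prod (Measure.pi D)))
        + ∫⁻ p, F2 p ∂((R₁.law.prod R₂.law).prod ((Measure.pi D).prod (Measure.pi D))) := by
    rw [← lintegral_add_left mF1]
    refine lintegral_congr (fun p => ?_)
    obtain ⟨e1, e2⟩ := run_prodRule M X hsum R₁ R₂ p.1 p.2.1 p.2.2 (adv.order p.1 p.2.1 p.2.2)
    rw [e1, Finset.sum_union e2, ENNReal.coe_add]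
  rw [hint]
  have b1 : c * ∫⁻ v, (opt (M.restrict X) v : ℝ≥0∞) ∂(Measure.pi D)
      ≤ ∫⁻ p, F1 p ∂((R₁.law.prod R₂.law).prod ((Measure.pi D).prod (Measure.pi D))) := by
    refine lintegral_ge_left R₁.law R₂.law _ F1 mF1 _ (fun r₂ => ?_)
    exact h₁ D hD fin1 ⟨fun r s v => adv.order (r, r₂) s v, fun r s v => adv.nodup (r, r₂) s v,
      fun r s v e => adv.complete (r, r₂) s v e, fun l => by
        have hm : Measurable (fun p : R₁.Seed × (E → ℝ≥0) × (E → ℝ≥0) =>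
            (((p.1, r₂), p.2) : (R₁.Seed × R₂.Seed) × (E → ℝ≥0) × (E → ℝ≥0))) :=
          (measurable_fst.prodMk measurable_const).prodMk measurable_snd
        exact hm (adv.meas l)⟩
  have b2 : c * ∫⁻ v, (opt (M.restrict Xᶜ) v : ℝ≥0∞) ∂(Measure.pi D)
      ≤ ∫⁻ p, F2 p ∂((R₁.law.prod R₂.law).prod ((Measure.pi D).prod (Measure.pi D))) := by
    refine lintegral_ge_right R₁.law R₂.law _ F2 mF2 _ (fun r₁ => ?_)
    exact h₂ D hD fin2 ⟨fun r s v => adv.order (r₁, r) s v, fun r s v => adv.nodup (r₁, r) s v,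
      fun r s v e => adv.complete (r₁, r) s v e, fun l => by
        have hm : Measurable (fun p : R₂.Seed × (E → ℝ≥0) × (E → ℝ≥0) =>
            (((r₁, p.1), p.2) : (R₁.Seed × R₂.Seed) × (E → ℝ≥0) × (E → ℝ≥0))) :=
          (measurable_const.prodMk measurable_fst).prodMk measurable_snd
        exact hm (adv.meas l)⟩
  refine le_trans ?_ (add_le_add b1 b2)
  rw [← mul_add, ← lintegral_add_left (measurable_opt _).coe_nnreal_ennreal]
  refine mul_le_mul_right (lintegral_mono (fun v => ?_)) _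
  rw [← ENNReal.coe_add]
  exact ENNReal.coe_le_coe.2 (opt_le_restrict2 M X v)

end Vale.Agent.Lib.P331
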